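import Vale.Agent.P243b.Defs
import Vale.Agent.P243b.Main

open MeasureTheory
open scoped ENNReal

namespace Vale.Agent.Results.P243.BangFalse

open Vale.Agent.P243b

/-- A regular tetrahedron is covered by finitely many cylinders whose total base area is strictly
less than half of its smallest projection area; the relative area is also below one half. -/
theorem result :
    ∃ v : Fin 4 → E3, (∀ i j, i ≠ j → dist (v i) (v j) = 2) ∧
      ∃ K : Set E3, K = convexHull ℝ (Set.range v) ∧ IsConvexBody K ∧
        (∀ w : E3, ‖w‖ = 1 → projArea K w < ⊤) ∧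
        ∃ (m : ℕ) (u : Fin m → E3) (B : Fin m → Set E3),
          (∀ i, ‖u i‖ = 1) ∧ (∀ i, B i ⊆ Submodule.orthogonal (Submodule.span ℝ {u i})) ∧ (∀ i, IsCompact (B i)) ∧
          (∀ i, MeasurableSet (B i)) ∧ (∀ i, area (B i) < ⊤) ∧
          K ⊆ ⋃ i, cylinder (B i) (u i) ∧
          ∑ i, area (B i) < minProjArea K / 2 ∧
          ∑ i, area (B i) / projArea K (u i) < 1 / 2 :=
  ⟨vert, dist_vert, tet, rfl, tet_convexBody,
    fun _ hw => projArea_lt_top hw tet_convexBody.1, main⟩

end Vale.Agent.Results.P243.BangFalse
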