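import Vale.Agent.P243.Bridge

open MeasureTheory Vale.Agent.P243

/-- A regular tetrahedron `K` has a finite cylinder covering whose total base area is at most
`(1/2 - 1/4500) A_min(K) < A_min(K)/2` and whose directionwise relative area is at most
`229/500 < 1/2`. -/
theorem Vale.Agent.Results.P243.Tetrahedron.result :
    ∃ K : Set E3,
      K = convexHull ℝ ({!₂[1, 1, 1], !₂[1, -1, -1], !₂[-1, 1, -1], !₂[-1, -1, 1]} : Set E3) ∧
      IsCompact K ∧ Convex ℝ K ∧ (interior K).Nonempty ∧ 0 < minProjArea K ∧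
      ∃ (m : ℕ) (u : Fin m → E3) (B : Fin m → Set E3),
        (∀ i, ‖u i‖ = 1) ∧ (∀ i, ∀ b ∈ B i, inner ℝ (u i) b = 0) ∧
        (∀ i, MeasurableSet (B i)) ∧ (∀ i, areaMeasure (B i) < ⊤) ∧
        K ⊆ ⋃ i, cylinder (u i) (B i) ∧
        ∑ i, area (B i) ≤ (1 / 2 - 1 / 4500) * minProjArea K ∧
        ∑ i, area (B i) < 1 / 2 * minProjArea K ∧
        ∑ i, area (B i) / projArea K (u i) ≤ 229 / 500 := by
  have hl := minProjArea_lower
  have hpos : 0 < minProjArea tet := lt_of_lt_of_le (by positivity) hl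
  obtain ⟨m, u, B, h1, h2, h3, h4, h5, h6, h7⟩ := main_tet'
  exact ⟨tet, tet_eq, isCompact_tet, convex_tet, interior_tet, hpos, m, u, B, h1, h2, h3, h4, h5,
    by linarith, by linarith, h7⟩
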